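import Vale.Agent.H32.DS.Transfer
import Vale.Agent.H32.DS.UR

/-!
P120 (David-Semmes problem).  Product measures with a line factor, with the regularity of the
factor at all scales: the statement of `B_ProductLine` together with the two-sided bound
`C⁻¹ r^n ≤ ν (B(x, r)) ≤ C r^n` for all `x` in the support of `ν` and every `r > 0`.
-/

open MeasureTheory

namespace Vale.Agent.Results.P120.B0_ProductLineAllScales

open Vale.Agent.H32

/-- Let `E` be a finite-dimensional real inner product space, `n ≥ 1`, `ν` a locally finite Borel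
measure on `E` and `μ = L¹ ⊗ ν` on the Euclidean product `ℝ × E`.  If `μ` is `(n+1)`-AD-regular
and its `(n+1)`-dimensional Riesz transform is bounded on `L²(μ)`, then `ν` satisfies
`C⁻¹ r^n ≤ ν (B(x, r)) ≤ C r^n` for all `x` in its support and all `r > 0`, `ν` is
`n`-AD-regular, its `n`-dimensional Riesz transform is bounded on `L²(ν)`, and if `ν` is
uniformly `n`-rectifiable then `μ` is uniformly `(n+1)`-rectifiable. -/
theorem result {E : Type*} [NormedAddCommGroup E] [InnerProductSpace ℝ E]
    [FiniteDimensional ℝ E] [MeasurableSpace E] [BorelSpace E]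
    (n : ℕ) (hn : 1 ≤ n) (ν : Measure E) [IsLocallyFiniteMeasure ν]
    (hAD : IsADRegular (n + 1) (lineProd ν))
    (hR : IsRieszBounded (n + 1) (lineProd ν)) :
    (∃ C : ℝ, 1 ≤ C ∧ ∀ x ∈ ν.support, ∀ r : ℝ, 0 < r →
      ENNReal.ofReal (C⁻¹ * r ^ n) ≤ ν (Metric.ball x r) ∧
        ν (Metric.ball x r) ≤ ENNReal.ofReal (C * r ^ n)) ∧
    IsADRegular n ν ∧ IsRieszBounded n ν ∧
      (IsUniformlyRectifiable n ν → IsUniformlyRectifiable (n + 1) (lineProd ν)) := by
  obtain ⟨C, hC1, hC⟩ := adRegular_of_lineProd n hn ν hAD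
  exact ⟨⟨C, hC1, hC⟩, ⟨C, hC1, fun x hx r hr _ => hC x hx r hr⟩,
    rieszBounded_of_lineProd n hn ν hAD hR,
    fun hUR => uniformlyRectifiable_lineProd n hn ν hAD hUR⟩

end Vale.Agent.Results.P120.B0_ProductLineAllScales
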