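import Vale.Agent.H32.DS.Transfer
import Vale.Agent.H32.DS.UR

/-!
P120 (David-Semmes problem).  Product measures with a line factor: the problem for `L¹ ⊗ ν`
reduces to the problem for `ν`, one dimension lower.
-/

open MeasureTheory

namespace Vale.Agent.Results.P120.B_ProductLine

open Vale.Agent.H32

/-- Let `E` be a finite-dimensional real inner product space (for instance `ℝ^d`), `n ≥ 1`, `ν` a
locally finite Borel measure on `E` and `μ = L¹ ⊗ ν` on the Euclidean product `ℝ × E`.
If `μ` is `(n+1)`-AD-regular and its `(n+1)`-dimensional Riesz transform is bounded on `L²(μ)`,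
then `ν` is `n`-AD-regular, its `n`-dimensional Riesz transform is bounded on `L²(ν)`, and if `ν`
is uniformly `n`-rectifiable then `μ` is uniformly `(n+1)`-rectifiable. -/
theorem result {E : Type*} [NormedAddCommGroup E] [InnerProductSpace ℝ E]
    [FiniteDimensional ℝ E] [MeasurableSpace E] [BorelSpace E]
    (n : ℕ) (hn : 1 ≤ n) (ν : Measure E) [IsLocallyFiniteMeasure ν]
    (hAD : IsADRegular (n + 1) (lineProd ν))
    (hR : IsRieszBounded (n + 1) (lineProd ν)) :
    (IsADRegular n ν ∧ IsRieszBounded n ν) ∧
      (IsUniformlyRectifiable n ν → IsUniformlyRectifiable (n + 1) (lineProd ν)) := by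
  refine ⟨⟨?_, rieszBounded_of_lineProd n hn ν hAD hR⟩,
    fun hUR => uniformlyRectifiable_lineProd n hn ν hAD hUR⟩
  obtain ⟨C, hC1, hC⟩ := adRegular_of_lineProd n hn ν hAD
  exact ⟨C, hC1, fun x hx r hr _ => hC x hx r hr⟩

end Vale.Agent.Results.P120.B_ProductLine
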